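import Vale.Agent.P007.Dyn
import Vale.Agent.P007.Fld

namespace Vale.Agent.Results.P007.Composite

open MeasureTheory Filter Topology NumberField Vale.Agent.P007

theorem result (n : ℕ) [MeasurableSpace (X n)] [BorelSpace (X n)] :
    (∀ P : Polynomial ℤ, P ≠ 0 → ∃ f : X n → ℝ, Test f ∧
      ∀ (K : Type) [Field K] [NumberField K] [IsTotallyReal K] (σ : Fin n ≃ (K →+* ℝ))
        (O : Subring K) (η : K), η ∈ O → Polynomial.aeval η P = 0 →
        η ∉ Set.range (algebraMap ℚ K) →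
        ∀ μ : Measure (X n), μ (packet σ O)ᶜ = 0 → ∫ x, f x ∂μ = 0) ∧
    (4 ≤ n → ¬ n.Prime →
      ∃ (K : ℕ → Type) (_ : ∀ i, Field (K i)) (_ : ∀ i, NumberField (K i)),
        (∀ i, IsTotallyReal (K i) ∧ Module.finrank ℚ (K i) = n) ∧
        Tendsto (fun i => |discr (K i)|) atTop atTop ∧
        ∃ f : X n → ℝ, Test f ∧
          ∀ (σ : ∀ i, Fin n ≃ (K i →+* ℝ)) (μ : ℕ → Measure (X n)),
            (∀ i, μ i (packet (σ i) (integralClosure ℤ (K i)).toSubring)ᶜ = 0) →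
            (∀ i, ∫ x, f x ∂(μ i) = 0) ∧
            ∀ m : Measure (X n), IsProbabilityMeasure m → SMulInvariantMeasure (G n) (X n) m →
              ¬ Tendsto (fun i => ∫ x, f x ∂(μ i)) atTop (𝓝 (∫ x, f x ∂m))) := by
  have A : ∀ P : Polynomial ℤ, P ≠ 0 → ∃ f : X n → ℝ, Test f ∧
      ∀ (K : Type) [Field K] [NumberField K] [IsTotallyReal K] (σ : Fin n ≃ (K →+* ℝ))
        (O : Subring K) (η : K), η ∈ O → Polynomial.aeval η P = 0 →
        η ∉ Set.range (algebraMap ℚ K) →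
        ∀ μ : Measure (X n), μ (packet σ O)ᶜ = 0 → ∫ x, f x ∂μ = 0 := by
    intro P hP
    have hfin : {d : Fin n → ℝ | (∀ j, d j ∈ P.rootSet ℝ) ∧ ¬ ∀ j k, d j = d k}.Finite :=
      (Set.Finite.pi' fun _ => P.rootSet_finite ℝ).subset fun d hd => hd.1
    obtain ⟨f, hf, h0⟩ := test_exists _ hfin fun d hd => hd.2
    refine ⟨f, hf, fun K _ _ _ σ O η hη hr hq μ hμ => ?_⟩
    apply integral_eq_zero_of_ae
    refine measure_mono_null (t := (packet σ O)ᶜ) (fun x hx hp => hx ?_) hμ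
    obtain ⟨g, rfl, hg⟩ := int_of_packet σ O hη hp
    refine h0 g ⟨_, ⟨fun j => ?_, nonconst σ hq⟩, hg⟩
    rw [Polynomial.mem_rootSet]
    refine ⟨hP, ?_⟩
    have := Polynomial.aeval_algHom_apply (σ j).toIntAlgHom η P
    rw [hr, map_zero] at this
    exact this
  refine ⟨A, fun h4 hn => ?_⟩
  obtain ⟨d, e, hd, he, hde⟩ : ∃ d e, 2 ≤ d ∧ 2 ≤ e ∧ d * e = n := by
    obtain ⟨d, hd, h2, h3⟩ := Nat.exists_dvd_of_not_prime2 (by omega) hn
    obtain ⟨e, rfl⟩ := hd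
    refine ⟨d, e, h2, ?_, rfl⟩
    rcases e with _ | _ | e <;> omega
  obtain ⟨P, hP, hK⟩ := fields d e hd he
  choose K i1 i2 h1 h2 h3 η h4 h5 h6 using hK
  obtain ⟨f, hf, h0⟩ := A P hP
  refine ⟨K, i1, i2, fun i => ⟨h1 i, hde ▸ h2 i⟩,
    tendsto_atTop_mono h3 tendsto_natCast_atTop_atTop, f, hf, fun σ μ hμ => ?_⟩
  have hz : ∀ i, ∫ x, f x ∂(μ i) = 0 := fun i =>
    haveI := h1 i
    h0 (K i) (σ i) _ (η i) (h4 i) (h5 i) (h6 i) (μ i) (hμ i)
  refine ⟨hz, fun m hm hi ht => ?_⟩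
  simp only [hz] at ht
  exact (hf.2.2 m hm hi).ne (tendsto_nhds_unique tendsto_const_nhds ht)

end Vale.Agent.Results.P007.Composite
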